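import Vale.Agent.H19.GapMain

/-!
A growth gap for the actions of infinite finitely presented simple groups.
-/

namespace Vale.Agent.Results.P196.SchreierGap

open Filter

/-- The ball of radius `n` around `x` in the Schreier graph of the action of `G` on `X` with
respect to `S`: the points `l.prod • x`, where `l` is a list of at most `n` elements of `G` each
of which lies in `S` or has its inverse in `S`. -/
def ball {G X : Type*} [Group G] [MulAction G X] (S : Set G) (x : X) (n : ℕ) : Set X :=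
  {y | ∃ l : List G, l.length ≤ n ∧ (∀ g ∈ l, g ∈ S ∨ g⁻¹ ∈ S) ∧ l.prod • x = y}

lemma noFiniteIndex {G : Type*} [Group G] [IsSimpleGroup G] [Infinite G] (N : Subgroup G)
    (hN : N.Normal) (hfi : N.FiniteIndex) : N = ⊤ := by
  rcases IsSimpleGroup.eq_bot_or_eq_top_of_normal N hN with h | h
  · exfalso
    subst h
    have : Finite (G ⧸ (⊥ : Subgroup G)) := Subgroup.finite_quotient_of_finiteIndex
    have h2 : Finite G := Finite.of_equiv _ (QuotientGroup.quotientBot (G := G)).toEquiv
    exact not_finite G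
  · exact h

theorem growth {G : Type*} [Group G] [Group.IsFinitelyPresented G] [IsSimpleGroup G] [Infinite G]
    (S : Set G) (hSf : S.Finite) (hS : Subgroup.closure S = ⊤) :
    ∃ c : ℝ, 0 < c ∧ ∃ n₀ : ℕ, ∀ (X : Type*) [MulAction G X] (x : X), (∃ g : G, g • x ≠ x) →
      ∀ n ≥ n₀, c * n * Real.log n / Real.log (Real.log n) ≤ (ball S x n).ncard := by
  obtain ⟨M, c₀, τ, hM, hc, h⟩ := Vale.Agent.H19.ball_lower_bound
    (fun N hN hfi => noFiniteIndex N hN hfi) S hSf hS
  obtain ⟨c, hc0, n₀, hn₀⟩ := Vale.Agent.H19.asymptotic M c₀ τ hM hc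
  refine ⟨c, hc0, n₀, ?_⟩
  intro X _ x hx n hn
  exact hn₀ n hn _ (fun w J hJ => h X x hx w J n hJ)

lemma exists_bound {G X : Type*} [Group G] [MulAction G X] (φ : Equiv.Perm X)
    (h : ∀ g : G, ∃ k : ℕ, ∀ y : X, ∃ m : ℤ, |m| ≤ k ∧ g • y = (φ ^ m) y)
    (S : Set G) (hSf : S.Finite) : ∃ k : ℕ, ∀ g : G, (g ∈ S ∨ g⁻¹ ∈ S) →
      ∀ y : X, ∃ m : ℤ, |m| ≤ k ∧ g • y = (φ ^ m) y := by
  classical
  choose k hk using h
  refine ⟨∑ g ∈ hSf.toFinset, (k g + k g⁻¹), ?_⟩
  intro g hg y
  obtain ⟨m, hm1, hm2⟩ := hk g y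
  refine ⟨m, hm1.trans ?_, hm2⟩
  rcases hg with hg | hg
  · have := Finset.single_le_sum (f := fun g : G => k g + k g⁻¹)
      (fun _ _ => Nat.zero_le _) (hSf.mem_toFinset.2 hg)
    have h2 : k g ≤ ∑ g ∈ hSf.toFinset, (k g + k g⁻¹) := le_trans (by simp) this
    exact_mod_cast h2
  · have := Finset.single_le_sum (f := fun g : G => k g + k g⁻¹)
      (fun _ _ => Nat.zero_le _) (hSf.mem_toFinset.2 hg)
    have h2 : k g ≤ ∑ g ∈ hSf.toFinset, (k g + k g⁻¹) := le_trans (by simp) this
    exact_mod_cast h2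

lemma ball_subset {G X : Type*} [Group G] [MulAction G X] (φ : Equiv.Perm X) (S : Set G) (k : ℕ)
    (hk : ∀ g : G, (g ∈ S ∨ g⁻¹ ∈ S) → ∀ y : X, ∃ m : ℤ, |m| ≤ k ∧ g • y = (φ ^ m) y) (x : X)
    (n : ℕ) : ball S x n ⊆
      (fun m : ℤ => (φ ^ m) x) '' (Finset.Icc (-(k * n : ℤ)) (k * n) : Set ℤ) := by
  rintro y ⟨l, h1, h2, rfl⟩
  have key : ∀ l : List G, (∀ g ∈ l, g ∈ S ∨ g⁻¹ ∈ S) →
      ∃ m : ℤ, |m| ≤ k * l.length ∧ l.prod • x = (φ ^ m) x := by
    intro l
    induction l with
    | nil => intro _; exact ⟨0, by simp, by simp⟩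
    | cons g l ih =>
      intro hl
      obtain ⟨m, hm1, hm2⟩ := ih (fun g hg => hl g (by simp [hg]))
      obtain ⟨m', hm1', hm2'⟩ := hk g (hl g (by simp)) (l.prod • x)
      refine ⟨m' + m, ?_, ?_⟩
      · calc |m' + m| ≤ |m'| + |m| := abs_add_le _ _
          _ ≤ k + k * l.length := add_le_add hm1' hm1
          _ = k * (g :: l).length := by simp only [List.length_cons]; push_cast; ring
      · rw [List.prod_cons, mul_smul, hm2', hm2, zpow_add]
        rfl
  obtain ⟨m, hm1, hm2⟩ := key l h2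
  refine ⟨m, ?_, hm2.symm⟩
  have h3 : (k * l.length : ℤ) ≤ k * n := by
    have : (l.length : ℤ) ≤ n := by exact_mod_cast h1
    exact mul_le_mul_of_nonneg_left this (by positivity)
  rw [Finset.mem_coe, Finset.mem_Icc]
  exact abs_le.1 (hm1.trans h3)

/-- Let `G` be an infinite, finitely presented, simple group with finite generating set `S`.
(1) There is `c > 0` such that in every action of `G`, the ball of radius `n` around every point
which is not fixed has at least `c n log n / log log n` points, for all large `n` (uniformly).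
(2) If `G` acts on a set `X` and every `g ∈ G` acts by bounded powers of one fixed permutation `φ`
of `X` (for instance, through the topological full group of a homeomorphism `φ`), then the action
is trivial. -/
theorem result {G : Type*} [Group G] [Group.IsFinitelyPresented G] [IsSimpleGroup G] [Infinite G]
    (S : Set G) (hSf : S.Finite) (hS : Subgroup.closure S = ⊤) :
    (∃ c : ℝ, 0 < c ∧ ∃ n₀ : ℕ, ∀ (X : Type*) [MulAction G X] (x : X), (∃ g : G, g • x ≠ x) →
      ∀ n ≥ n₀, c * n * Real.log n / Real.log (Real.log n) ≤ (ball S x n).ncard) ∧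
    (∀ (X : Type*) [MulAction G X] (φ : Equiv.Perm X),
      (∀ g : G, ∃ k : ℕ, ∀ y : X, ∃ m : ℤ, |m| ≤ k ∧ g • y = (φ ^ m) y) →
      ∀ (g : G) (x : X), g • x = x) := by
  refine ⟨growth S hSf hS, ?_⟩
  intro X _ φ h g x
  by_contra hgx
  obtain ⟨c, hc0, n₀, hn₀⟩ := growth S hSf hS
  obtain ⟨k, hk⟩ := exists_bound φ h S hSf
  have hcard : ∀ n : ℕ, ((ball S x n).ncard : ℝ) ≤ 2 * k * n + 1 := by
    intro n
    have h1 := Set.ncard_le_ncard (ball_subset φ S k hk x n)
      ((Finset.finite_toSet _).image _)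
    have h2 : ((fun m : ℤ => (φ ^ m) x) '' (Finset.Icc (-(k * n : ℤ)) (k * n) : Set ℤ)).ncard ≤
        (Finset.Icc (-(k * n : ℤ)) (k * n)).card := by
      rw [← Set.ncard_coe_finset]
      exact Set.ncard_image_le (Finset.finite_toSet _)
    have h3 : (Finset.Icc (-(k * n : ℤ)) (k * n)).card = 2 * (k * n) + 1 := by
      rw [Int.card_Icc]
      omega
    have h4 : (ball S x n).ncard ≤ 2 * (k * n) + 1 := by omega
    have h5 : ((ball S x n).ncard : ℝ) ≤ ((2 * (k * n) + 1 : ℕ) : ℝ) := by exact_mod_cast h4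
    push_cast at h5
    linarith
  have hL : Tendsto (fun n : ℕ => Real.log n) atTop atTop :=
    Real.tendsto_log_atTop.comp tendsto_natCast_atTop_atTop
  have h1 : Tendsto (fun x : ℝ => Real.log x / x) atTop (nhds 0) := by
    have := Real.isLittleO_log_id_atTop.tendsto_div_nhds_zero
    simpa using this
  have h2 := (h1.comp hL).eventually (gt_mem_nhds (show (0 : ℝ) < c / (2 * k + 2) by positivity))
  have hl : Tendsto (fun n : ℕ => Real.log (Real.log n)) atTop atTop :=
    Real.tendsto_log_atTop.comp hL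
  obtain ⟨n, hn1, hn2, hn3, hn4, hn5⟩ := (h2.and ((hL.eventually_gt_atTop 0).and
    ((hl.eventually_gt_atTop 0).and ((eventually_ge_atTop n₀).and
      (eventually_ge_atTop 1))))).exists
  have h6 := hn₀ X x ⟨g, hgx⟩ n hn4
  have h7 := h6.trans (hcard n)
  simp only [Function.comp] at hn1
  have hn5' : (1 : ℝ) ≤ n := by exact_mod_cast hn5
  rw [div_lt_div_iff₀ hn2 (by positivity)] at hn1
  rw [div_le_iff₀ hn3] at h7
  have h8 : Real.log (Real.log n) * (2 * k + 2) * n < c * Real.log n * n :=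
    mul_lt_mul_of_pos_right hn1 (by linarith)
  have h9 : (2 * (k : ℝ) * n + 1) * Real.log (Real.log n) ≤
      Real.log (Real.log n) * (2 * k + 2) * n := by
    have : 2 * (k : ℝ) * n + 1 ≤ (2 * k + 2) * n := by nlinarith
    calc (2 * (k : ℝ) * n + 1) * Real.log (Real.log n)
        ≤ ((2 * k + 2) * n) * Real.log (Real.log n) := mul_le_mul_of_nonneg_right this hn3.le
      _ = _ := by ring
  have h10 : c * n * Real.log n = c * Real.log n * n := by ring
  rw [h10] at h7
  linarith

end Vale.Agent.Results.P196.SchreierGap
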